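import Mathlib.MeasureTheory.Covering.Vitali
import Mathlib.MeasureTheory.Function.LocallyIntegrable
import Mathlib.MeasureTheory.Measure.Regular
import Mathlib.Tactic

/-! ### Lebesgue points from the upper Ahlfors bound, and `lip = slope` from Morrey's estimate

Pure metric measure theory. -/

open MeasureTheory Measure Filter Topology Metric Set
open scoped ENNReal NNReal

namespace Vale.Agent.P233.H491

variable {M : Type*} [MetricSpace M] [MeasurableSpace M] [BorelSpace M]

/-- The upper Ahlfors bound `m (closedBall y s) ≤ C sⁿ`, locally uniform. -/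
def UpReg (m : Measure M) (n : ℝ) : Prop :=
  ∀ x : M, ∃ C : ℝ, ∃ δ > 0, ∀ y ∈ ball x δ, ∀ s, 0 < s → s ≤ δ →
    m (closedBall y s) ≤ ENNReal.ofReal (C * s ^ n)

/-- `y` is a Lebesgue point of `g`: `∫_{B(y,s)} |g - g(y)| dm = o(sⁿ)`. -/
def LebPt (m : Measure M) (n : ℝ) (g : M → ℝ) (y : M) : Prop :=
  ∀ ε > 0, ∀ᶠ s in 𝓝[>] (0 : ℝ),
    ∫⁻ z in closedBall y s, ENNReal.ofReal |g z - g y| ∂m ≤ ENNReal.ofReal (ε * s ^ n)

section Vitali

variable [SecondCountableTopology M]

/-- Comparison of two measures by the `5r`-covering lemma. -/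
theorem cov_le {m ν : Measure M} {n a C δ : ℝ} (ha : 0 < a) (hC : 0 ≤ C)
    (hδ : 0 < δ) {B W : Set M} (hW : IsOpen W) (hBW : B ⊆ W)
    (hup : ∀ y ∈ B, ∀ s, 0 < s → s ≤ δ → m (closedBall y s) ≤ ENNReal.ofReal (C * s ^ n))
    (hB : ∀ y ∈ B, ∃ᶠ s in 𝓝[>] (0 : ℝ), ENNReal.ofReal (a * s ^ n) ≤ ν (closedBall y s)) :
    m B ≤ ENNReal.ofReal (5 ^ n * C / a) * ν W := by
  classical
  set T : Set (M × ℝ) := {p | p.1 ∈ B ∧ 0 < p.2 ∧ p.2 ≤ δ / 5 ∧
    closedBall p.1 p.2 ⊆ W ∧ ENNReal.ofReal (a * p.2 ^ n) ≤ ν (closedBall p.1 p.2)} with hT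
  obtain ⟨u, hu, hdisj, hcovu⟩ :=
    Vitali.exists_disjoint_subfamily_covering_enlargement_closedBall T (fun a => a.1)
      (fun a => a.2) (δ / 5) (fun a ha => ha.2.2.1) 5 (by norm_num)
  have hcount : u.Countable :=
    hdisj.countable_of_nonempty_interior fun a ha => by
      refine ⟨a.1, ?_⟩
      exact ball_subset_interior_closedBall (mem_ball_self (hu ha).2.1)
  have : Countable u := hcount.to_subtype
  have hsub : B ⊆ ⋃ a : u, closedBall a.1.1 (5 * a.1.2) := by
    intro x hx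
    have hev : ∀ᶠ r in 𝓝[>] (0 : ℝ), 0 < r ∧ r ≤ δ / 5 ∧ closedBall x r ⊆ W := by
      obtain ⟨ε, hε, hball⟩ := Metric.isOpen_iff.1 hW x (hBW hx)
      have h1 : ∀ᶠ r in 𝓝[>] (0 : ℝ), r ∈ Ioo 0 (min ε (δ / 5)) :=
        Ioo_mem_nhdsGT (lt_min hε (by positivity))
      filter_upwards [h1] with r hr
      exact ⟨hr.1, (hr.2.trans_le (min_le_right _ _)).le,
        (closedBall_subset_ball (hr.2.trans_le (min_le_left _ _))).trans hball⟩
    obtain ⟨r, hr, h0, h1, h2⟩ := ((hB x hx).and_eventually hev).exists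
    obtain ⟨b, hb, hsub⟩ := hcovu (x, r) ⟨hx, h0, h1, h2, hr⟩
    exact mem_iUnion.2 ⟨⟨b, hb⟩, hsub (mem_closedBall_self h0.le)⟩
  calc m B ≤ m (⋃ a : u, closedBall a.1.1 (5 * a.1.2)) := measure_mono hsub
    _ ≤ ∑' a : u, m (closedBall a.1.1 (5 * a.1.2)) := measure_iUnion_le _
    _ ≤ ∑' b : u, ENNReal.ofReal (5 ^ n * C / a) * ν (closedBall b.1.1 b.1.2) := by
        refine ENNReal.tsum_le_tsum fun b => ?_
        obtain ⟨hb, hr, hr5, -, hm⟩ := hu b.2
        calc m (closedBall b.1.1 (5 * b.1.2)) ≤ ENNReal.ofReal (C * (5 * b.1.2) ^ n) :=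
              hup _ hb _ (by positivity) (by linarith)
          _ = ENNReal.ofReal (5 ^ n * C / a) * ENNReal.ofReal (a * b.1.2 ^ n) := by
              rw [← ENNReal.ofReal_mul (by positivity), Real.mul_rpow (by norm_num) hr.le]
              congr 1
              field_simp
          _ ≤ _ := by gcongr
    _ = ENNReal.ofReal (5 ^ n * C / a) * ∑' b : u, ν (closedBall b.1.1 b.1.2) :=
        ENNReal.tsum_mul_left
    _ = ENNReal.ofReal (5 ^ n * C / a) * ν (⋃ b : u, closedBall b.1.1 b.1.2) := by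
        rw [measure_iUnion]
        · intro a b hab
          exact hdisj a.2 b.2 (fun h => hab (Subtype.ext h))
        · exact fun a => isClosed_closedBall.measurableSet
    _ ≤ _ := by
        gcongr
        exact iUnion_subset fun a => (hu a.2).2.2.2.1

/-- If `ν A = 0`, then `ν (closedBall y s) = o(sⁿ)` at `m`-almost every point `y` of `A`. -/
theorem ae_small {m ν : Measure M} {n : ℝ} (hup : UpReg m n) [IsLocallyFiniteMeasure ν]
    {A : Set M} (hA : ν A = 0) :
    ∀ᵐ y ∂m, y ∈ A → ∀ ε > 0, ∀ᶠ s in 𝓝[>] (0 : ℝ), ν (closedBall y s) ≤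
      ENNReal.ofReal (ε * s ^ n) := by
  have key : ∀ k : ℕ, ∀ᵐ y ∂m, y ∈ A → ∀ᶠ s in 𝓝[>] (0 : ℝ), ν (closedBall y s) ≤
      ENNReal.ofReal (((k : ℝ) + 1)⁻¹ * s ^ n) := by
    intro k
    rw [ae_iff]
    refine measure_null_of_locally_null _ fun x hx => ?_
    obtain ⟨C, δ, hδ, hC⟩ := hup x
    set S : Set M := {y | ¬ (y ∈ A → ∀ᶠ s in 𝓝[>] (0 : ℝ), ν (closedBall y s) ≤
      ENNReal.ofReal (((k : ℝ) + 1)⁻¹ * s ^ n))} with hS
    refine ⟨S ∩ ball x δ, inter_mem_nhdsWithin _ (ball_mem_nhds x hδ), ?_⟩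
    have hSA : S ∩ ball x δ ⊆ A := fun y hy => by
      by_contra h
      exact hy.1 fun h' => absurd h' h
    have hS0 : ν (S ∩ ball x δ) = 0 := measure_mono_null hSA hA
    have hB : ∀ y ∈ S ∩ ball x δ, ∃ᶠ s in 𝓝[>] (0 : ℝ),
        ENNReal.ofReal (((k : ℝ) + 1)⁻¹ * s ^ n) ≤ ν (closedBall y s) := by
      intro y hy
      have h1 : ¬ (y ∈ A → ∀ᶠ s in 𝓝[>] (0 : ℝ), ν (closedBall y s) ≤
        ENNReal.ofReal (((k : ℝ) + 1)⁻¹ * s ^ n)) := hy.1
      rw [Classical.not_imp, not_eventually] at h1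
      exact h1.2.mono fun r hr => (not_le.1 hr).le
    have hle : ∀ ε : ℝ≥0∞, 0 < ε → m (S ∩ ball x δ)
        ≤ ENNReal.ofReal (5 ^ n * |C| / ((k : ℝ) + 1)⁻¹) * ε := by
      intro ε hε
      obtain ⟨W, hW1, hW2, hW3⟩ := (S ∩ ball x δ).exists_isOpen_le_add ν hε.ne'
      refine (cov_le (C := |C|) (δ := δ) (by positivity) (abs_nonneg C) hδ hW2 hW1 ?_ hB).trans ?_
      · intro y hy s hs hsδ
        refine (hC y hy.2 s hs hsδ).trans (ENNReal.ofReal_le_ofReal ?_)
        exact mul_le_mul_of_nonneg_right (le_abs_self C) (Real.rpow_nonneg hs.le n)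
      · rw [hS0, zero_add] at hW3
        gcongr
    have hlim : Tendsto (fun ε : ℝ≥0∞ => ENNReal.ofReal (5 ^ n * |C| / ((k : ℝ) + 1)⁻¹) * ε)
        (𝓝[>] 0) (𝓝 (ENNReal.ofReal (5 ^ n * |C| / ((k : ℝ) + 1)⁻¹) * 0)) := by
      refine ENNReal.Tendsto.const_mul ?_ (Or.inr ENNReal.ofReal_ne_top)
      exact tendsto_id.mono_left nhdsWithin_le_nhds
    rw [mul_zero] at hlim
    exact le_antisymm (ge_of_tendsto hlim (by
      filter_upwards [self_mem_nhdsWithin] with ε hε using hle ε hε)) bot_le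
  rw [← ae_all_iff] at key
  filter_upwards [key] with y hy hyA ε hε
  obtain ⟨k, hk⟩ := exists_nat_one_div_lt hε
  filter_upwards [hy k hyA, self_mem_nhdsWithin] with s hs hs0
  refine hs.trans (ENNReal.ofReal_le_ofReal ?_)
  refine mul_le_mul_of_nonneg_right ?_ (Real.rpow_nonneg (le_of_lt hs0) n)
  rw [← one_div]
  exact hk.le

/-- Almost every point is a Lebesgue point of a locally integrable function. -/
theorem ae_lebPt {m : Measure M} [IsLocallyFiniteMeasure m] {n : ℝ} (hup : UpReg m n) {g : M → ℝ}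
    (hgm : Measurable g) (hg : LocallyIntegrable g m) : ∀ᵐ y ∂m, LebPt m n g y := by
  set ν : ℚ → ℚ → Measure M := fun c a =>
    m.withDensity fun z => ENNReal.ofReal (|g z - c| - a) with hν
  have hmeas : ∀ c a : ℚ, Measurable fun z => ENNReal.ofReal (|g z - c| - a) := fun c a =>
    ENNReal.measurable_ofReal.comp
      ((continuous_abs.measurable.comp (hgm.sub_const _)).sub_const _)
  have hfin : ∀ c a : ℚ, IsLocallyFiniteMeasure (ν c a) := by
    intro c a
    refine ⟨fun x => ?_⟩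
    obtain ⟨U, hU, hUi⟩ := hg x
    obtain ⟨V, hxV, hVo, hVfin⟩ := m.exists_isOpen_measure_lt_top x
    obtain ⟨U', hU'1, hU'2, hU'3⟩ := _root_.mem_nhds_iff.1 hU
    refine ⟨U' ∩ V, (hU'2.inter hVo).mem_nhds ⟨hU'3, hxV⟩, ?_⟩
    rw [hν]
    simp only
    rw [withDensity_apply _ (hU'2.inter hVo).measurableSet]
    have h1 : IntegrableOn (fun z => |g z| + (|(c : ℝ)| + |(a : ℝ)|)) (U' ∩ V) m := by
      refine Integrable.add ?_ ?_
      · exact (hUi.mono_set (inter_subset_left.trans hU'1)).norm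
      · exact integrableOn_const (((measure_mono inter_subset_right).trans_lt hVfin).ne)
    refine lt_of_le_of_lt (lintegral_mono fun z => ?_) h1.lintegral_lt_top
    refine ENNReal.ofReal_le_ofReal ?_
    have h2 := abs_sub (g z) (c : ℝ)
    have h3 := neg_abs_le (a : ℝ)
    linarith
  have hA : ∀ c a : ℚ, (ν c a) {y | |g y - c| ≤ a} = 0 := by
    intro c a
    have hm1 : MeasurableSet {y | |g y - c| ≤ (a : ℝ)} :=
      measurableSet_le (continuous_abs.measurable.comp (hgm.sub_const _)) measurable_const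
    rw [hν]
    simp only
    rw [withDensity_apply _ hm1, lintegral_eq_zero_iff (hmeas c a)]
    refine (ae_restrict_iff' hm1).2 (Eventually.of_forall fun z hz => ?_)
    exact ENNReal.ofReal_of_nonpos (by
      have : |g z - c| ≤ (a : ℝ) := hz
      linarith)
  have h1 : ∀ᵐ y ∂m, ∀ c a : ℚ, |g y - c| ≤ a → ∀ ε > 0, ∀ᶠ s in 𝓝[>] (0 : ℝ),
      (ν c a) (closedBall y s) ≤ ENNReal.ofReal (ε * s ^ n) := by
    rw [ae_all_iff]
    intro c
    rw [ae_all_iff]
    intro a
    have := hfin c a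
    exact ae_small hup (hA c a)
  filter_upwards [h1] with y hy ε hε
  obtain ⟨C, δ, hδ, hC⟩ := hup y
  set K : ℝ := |C| + 1 with hK
  have hK0 : 0 < K := by positivity
  obtain ⟨a, ha0, ha⟩ : ∃ a : ℚ, (0 : ℝ) < a ∧ (a : ℝ) < ε / (4 * K) :=
    exists_rat_btwn (by positivity)
  obtain ⟨c, hc1, hc2⟩ : ∃ c : ℚ, g y < c ∧ (c : ℝ) < g y + a := exists_rat_btwn (by linarith)
  have hca : |g y - c| ≤ a := by
    rw [abs_le]
    constructor <;> linarith
  have hs1 : ∀ᶠ s in 𝓝[>] (0 : ℝ), s ∈ Ioo 0 δ := Ioo_mem_nhdsGT hδ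
  filter_upwards [hy c a hca (ε / 2) (by positivity), hs1] with s hs hs1
  have hsn : 0 ≤ s ^ n := Real.rpow_nonneg hs1.1.le n
  calc ∫⁻ z in closedBall y s, ENNReal.ofReal |g z - g y| ∂m
      ≤ ∫⁻ z in closedBall y s, (ENNReal.ofReal (|g z - c| - a) + ENNReal.ofReal (2 * a)) ∂m := by
        refine lintegral_mono fun z => ?_
        refine (ENNReal.ofReal_le_ofReal ?_).trans ENNReal.ofReal_add_le
        have h2 : |g z - g y| ≤ |g z - c| + |g y - c| := by
          have := abs_sub_le (g z) (c : ℝ) (g y)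
          rwa [abs_sub_comm (c : ℝ) (g y)] at this
        linarith
    _ = (ν c a) (closedBall y s) + ENNReal.ofReal (2 * a) * m (closedBall y s) := by
        rw [lintegral_add_left (hmeas c a), lintegral_const, Measure.restrict_apply_univ, hν]
        simp only
        rw [withDensity_apply _ isClosed_closedBall.measurableSet]
    _ ≤ ENNReal.ofReal (ε / 2 * s ^ n) + ENNReal.ofReal (2 * a) * ENNReal.ofReal (C * s ^ n) := by
        gcongr
        exact hC y (mem_ball_self hδ) s hs1.1 hs1.2.le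
    _ ≤ _ := by
        rw [← ENNReal.ofReal_mul (by positivity)]
        have h3 : 0 ≤ 2 * (a : ℝ) * (K * s ^ n) := by positivity
        refine (add_le_add le_rfl (ENNReal.ofReal_le_ofReal (show 2 * (a : ℝ) * (C * s ^ n)
          ≤ 2 * (a : ℝ) * (K * s ^ n) from ?_))).trans ?_
        · have : C ≤ K := (le_abs_self C).trans (by linarith)
          gcongr
        · rw [← ENNReal.ofReal_add (by positivity) h3]
          refine ENNReal.ofReal_le_ofReal ?_
          have h4 : 2 * (a : ℝ) * K ≤ ε / 2 := by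
            rw [lt_div_iff₀ (by positivity)] at ha
            linarith
          have h5 := mul_le_mul_of_nonneg_right h4 hsn
          linarith

end Vitali

omit [BorelSpace M] in
/-- The one-sided `q`-th power version of the Lebesgue point property, for bounded functions. -/
theorem LebPt.pow {m : Measure M} {n : ℝ} {g : M → ℝ} {y : M} (h : LebPt m n g y) {B q : ℝ}
    (hq : 1 ≤ q) (hB0 : 0 ≤ B) (hB : ∀ᵐ z ∂m, |g z| ≤ B) (hBy : |g y| ≤ B) :
    ∀ ε > 0, ∀ᶠ s in 𝓝[>] (0 : ℝ),
      ∫⁻ z in closedBall y s, ENNReal.ofReal (max (g z - g y) 0 ^ q) ∂m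
        ≤ ENNReal.ofReal (ε * s ^ n) := by
  intro ε hε
  set A : ℝ := (2 * B) ^ (q - 1) + 1 with hA
  have hA0 : 0 < A := by positivity
  filter_upwards [h (ε / A) (by positivity), self_mem_nhdsWithin] with s hs hs0
  have hs0' : (0 : ℝ) < s := hs0
  calc ∫⁻ z in closedBall y s, ENNReal.ofReal (max (g z - g y) 0 ^ q) ∂m
      ≤ ∫⁻ z in closedBall y s, ENNReal.ofReal A * ENNReal.ofReal |g z - g y| ∂m := by
        refine lintegral_mono_ae (ae_restrict_of_ae ?_)
        filter_upwards [hB] with z hz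
        rw [← ENNReal.ofReal_mul hA0.le]
        refine ENNReal.ofReal_le_ofReal ?_
        rcases le_or_gt (g z - g y) 0 with h0 | h0
        · rw [max_eq_right h0, Real.zero_rpow (by linarith)]
          positivity
        · rw [max_eq_left h0.le, abs_of_pos h0]
          have h1 : g z - g y ≤ 2 * B := by
            have := abs_le.1 hz
            have := abs_le.1 hBy
            linarith
          calc (g z - g y) ^ q = (g z - g y) ^ (q - 1) * (g z - g y) := by
                rw [← Real.rpow_add_one h0.ne', sub_add_cancel]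
            _ ≤ A * (g z - g y) := by
                refine mul_le_mul_of_nonneg_right ?_ h0.le
                refine (Real.rpow_le_rpow h0.le h1 (by linarith)).trans ?_
                rw [hA]
                linarith
    _ = ENNReal.ofReal A * ∫⁻ z in closedBall y s, ENNReal.ofReal |g z - g y| ∂m := by
        rw [lintegral_const_mul' _ _ ENNReal.ofReal_ne_top]
    _ ≤ ENNReal.ofReal A * ENNReal.ofReal (ε / A * s ^ n) := by gcongr
    _ = ENNReal.ofReal (ε * s ^ n) := by
        rw [← ENNReal.ofReal_mul hA0.le]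
        congr 1
        field_simp

omit [BorelSpace M] in
/-- `lip ≤ slope` at Lebesgue points, from Morrey's estimate. -/
theorem lip_slope {m : Measure M} {n q L c CM κ c0 r1 : ℝ} {b : M → ℝ} {G : M → ℝ} {y : M}
    (hc : 0 ≤ c) (hc0 : 0 < c0) (hκ : 0 ≤ κ) (hCM : 0 ≤ CM) (hr1 : 0 < r1)
    (hb : ∀ z z', |b z - b z'| ≤ L * dist z z')
    (hlow : ∀ x ∈ ball y r1, ∀ s, 0 < s → s ≤ r1 → ENNReal.ofReal (c0 * s ^ n) ≤ m (ball x s))
    (hM : ∀ p ∈ ball y r1, ∀ R, 0 < R → R ≤ r1 → ∀ η, 0 < η →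
      m {z | z ∈ ball p R ∧ c * dist z p + η * R < |b z - b p|} ≤
        ENNReal.ofReal ((CM / η) ^ q) *
          ∫⁻ z in ball p (κ * R), ENNReal.ofReal (max (G z - c) 0 ^ q) ∂m)
    (hLeb : ∀ ε > 0, ∀ᶠ s in 𝓝[>] (0 : ℝ),
      ∫⁻ z in closedBall y s, ENNReal.ofReal (max (G z - c) 0 ^ q) ∂m
        ≤ ENNReal.ofReal (ε * s ^ n)) :
    ∀ η > 0, ∀ᶠ r in 𝓝[>] (0 : ℝ), ∀ z ∈ closedBall y r, ∀ z' ∈ closedBall y r,
      |b z - b z'| ≤ c * dist z z' + η * r := by
  intro η hη
  set D : ℝ := |L| + c + 1 with hD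
  have hD0 : 0 < D := by positivity
  set δ : ℝ := min 1 (η / (2 * D)) with hδ
  have hδ0 : 0 < δ := lt_min one_pos (by positivity)
  have hδ1 : δ ≤ 1 := min_le_left _ _
  have hδ2 : D * δ ≤ η / 2 := by
    have : δ ≤ η / (2 * D) := min_le_right _ _
    rw [le_div_iff₀ (by positivity)] at this
    linarith
  set A : ℝ := (CM / (η / 8)) ^ q with hA
  have hA0 : 0 ≤ A := by positivity
  set k : ℝ := 4 * κ + 1 with hk
  have hk0 : 0 < k := by positivity
  set ε : ℝ := c0 * δ ^ n / ((A + 1) * k ^ n) with hε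
  have hε0 : 0 < ε := by positivity
  have hlim : Tendsto (fun r : ℝ => k * r) (𝓝[>] 0) (𝓝[>] 0) := by
    refine tendsto_nhdsWithin_iff.2 ⟨?_, ?_⟩
    · have : Tendsto (fun r : ℝ => k * r) (𝓝 0) (𝓝 (k * 0)) := tendsto_id.const_mul k
      rw [mul_zero] at this
      exact this.mono_left nhdsWithin_le_nhds
    · filter_upwards [self_mem_nhdsWithin] with r hr
      exact mul_pos hk0 hr
  have hsmall : ∀ᶠ r in 𝓝[>] (0 : ℝ), r ∈ Ioo 0 (r1 / 8) := Ioo_mem_nhdsGT (by positivity)
  filter_upwards [hlim.eventually (hLeb ε hε0), hsmall] with r hr1' hr2 z hz z' hz'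
  have hr0 : 0 < r := hr2.1
  have hr8 : 8 * r < r1 := by
    have := hr2.2
    linarith
  rw [mem_closedBall] at hz hz'
  have hzz' : dist z z' ≤ 2 * r := by
    calc dist z z' ≤ dist z y + dist y z' := dist_triangle _ _ _
      _ ≤ r + r := by rw [dist_comm y z']; gcongr
      _ = 2 * r := by ring
  by_cases hex : ∃ w ∈ ball z' (δ * r), |b w - b z| ≤ c * dist w z + η / 8 * (4 * r)
  · obtain ⟨w, hw, hwz⟩ := hex
    rw [mem_ball] at hw
    have h1 : |b z' - b w| ≤ |L| * (δ * r) := by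
      refine (hb z' w).trans ?_
      rw [dist_comm]
      calc L * dist w z' ≤ |L| * dist w z' := by gcongr; exact le_abs_self L
        _ ≤ |L| * (δ * r) := by gcongr
    have h2 : dist w z ≤ δ * r + dist z z' := by
      calc dist w z ≤ dist w z' + dist z' z := dist_triangle _ _ _
        _ ≤ δ * r + dist z z' := by rw [dist_comm z' z]; gcongr
    have h3 : |b z - b z'| ≤ |b w - b z| + |b z' - b w| := by
      have := abs_sub_le (b z) (b w) (b z')
      rw [abs_sub_comm (b z) (b w), abs_sub_comm (b w) (b z')] at this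
      exact this
    have h4 : c * dist w z ≤ c * (δ * r + dist z z') := by gcongr
    have h5 : (|L| + c) * δ ≤ η / 2 := by
      refine le_trans ?_ hδ2
      rw [hD]
      nlinarith
    have h6 : (|L| + c) * δ * r ≤ η / 2 * r := by gcongr
    nlinarith
  · exfalso
    push Not at hex
    have hsub : ball z' (δ * r) ⊆
        {w | w ∈ ball z (4 * r) ∧ c * dist w z + η / 8 * (4 * r) < |b w - b z|} := by
      intro w hw
      refine ⟨?_, hex w hw⟩
      rw [mem_ball] at hw ⊢
      calc dist w z ≤ dist w z' + dist z' z := dist_triangle _ _ _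
        _ < δ * r + 2 * r := by
            rw [dist_comm z' z]
            exact add_lt_add_of_lt_of_le hw hzz'
        _ ≤ 1 * r + 2 * r := by gcongr
        _ ≤ 4 * r := by linarith
    have hz1 : z ∈ ball y r1 := by
      rw [mem_ball]
      linarith
    have hz'1 : z' ∈ ball y r1 := by
      rw [mem_ball]
      linarith
    have hsub2 : ball z (κ * (4 * r)) ⊆ closedBall y (k * r) := by
      intro w hw
      rw [mem_ball] at hw
      rw [mem_closedBall]
      calc dist w y ≤ dist w z + dist z y := dist_triangle _ _ _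
        _ ≤ κ * (4 * r) + r := by linarith
        _ = k * r := by rw [hk]; ring
    have h1 : ENNReal.ofReal (c0 * (δ * r) ^ n) ≤ ENNReal.ofReal (A * (ε * (k * r) ^ n)) := by
      calc ENNReal.ofReal (c0 * (δ * r) ^ n) ≤ m (ball z' (δ * r)) := by
            refine hlow z' hz'1 _ (by positivity) ?_
            nlinarith
        _ ≤ m {w | w ∈ ball z (4 * r) ∧ c * dist w z + η / 8 * (4 * r) < |b w - b z|} :=
            measure_mono hsub
        _ ≤ ENNReal.ofReal A * ∫⁻ z in ball z (κ * (4 * r)),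
              ENNReal.ofReal (max (G z - c) 0 ^ q) ∂m :=
            hM z hz1 (4 * r) (by positivity) (by linarith) (η / 8) (by positivity)
        _ ≤ ENNReal.ofReal A * ∫⁻ z in closedBall y (k * r),
              ENNReal.ofReal (max (G z - c) 0 ^ q) ∂m := by
            gcongr
        _ ≤ ENNReal.ofReal A * ENNReal.ofReal (ε * (k * r) ^ n) := by gcongr
        _ = _ := by rw [← ENNReal.ofReal_mul hA0]
    rw [ENNReal.ofReal_le_ofReal_iff (by positivity)] at h1
    rw [Real.mul_rpow hδ0.le hr0.le, Real.mul_rpow hk0.le hr0.le] at h1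
    have hrn : 0 < r ^ n := Real.rpow_pos_of_pos hr0 n
    have h2 : A * (ε * (k ^ n * r ^ n)) = A / (A + 1) * (c0 * (δ ^ n * r ^ n)) := by
      rw [hε]
      have : 0 < k ^ n := Real.rpow_pos_of_pos hk0 n
      field_simp
    rw [h2] at h1
    have h3 : 0 < c0 * (δ ^ n * r ^ n) := by positivity
    have h4 : A / (A + 1) < 1 := by
      rw [div_lt_one (by positivity)]
      linarith
    nlinarith

end Vale.Agent.P233.H491
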